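import Mathlib

/-!
# P299, INDEX-KIRWAN: the abstract construction of the Kirwan field
-/

open Set Filter
open scoped Topology

noncomputable section

namespace Vale.Agent.P299.H582

variable {r : ℕ}

/-- the Euclidean scalar product of `ℝ^r` -/
def ip (u v : Fin r → ℝ) : ℝ := ∑ i, u i * v i

lemma ip_comm (u v : Fin r → ℝ) : ip u v = ip v u :=
  Finset.sum_congr rfl fun _ _ => mul_comm _ _

lemma ip_add (u v v' : Fin r → ℝ) : ip u (v + v') = ip u v + ip u v' := by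
  simp [ip, mul_add, Finset.sum_add_distrib]

lemma add_ip (u u' v : Fin r → ℝ) : ip (u + u') v = ip u v + ip u' v := by
  simp [ip, add_mul, Finset.sum_add_distrib]

lemma ip_smul (c : ℝ) (u v : Fin r → ℝ) : ip u (c • v) = c * ip u v := by
  simp only [ip, Pi.smul_apply, smul_eq_mul, Finset.mul_sum]
  exact Finset.sum_congr rfl fun i _ => by ring

lemma smul_ip (c : ℝ) (u v : Fin r → ℝ) : ip (c • u) v = c * ip u v := by
  rw [ip_comm, ip_smul, ip_comm]

lemma ip_sub (u v v' : Fin r → ℝ) : ip u (v - v') = ip u v - ip u v' := by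
  simp [ip, mul_sub, Finset.sum_sub_distrib]

lemma sub_ip (u u' v : Fin r → ℝ) : ip (u - u') v = ip u v - ip u' v := by
  simp [ip, sub_mul, Finset.sum_sub_distrib]

/-- the square of the Euclidean norm -/
def sq (u : Fin r → ℝ) : ℝ := ip u u

lemma sq_nonneg' (u : Fin r → ℝ) : 0 ≤ sq u := by
  unfold sq ip
  exact Finset.sum_nonneg fun i _ => mul_self_nonneg _

lemma sq_eq_zero' {u : Fin r → ℝ} : sq u = 0 ↔ u = 0 := by
  unfold sq ip
  rw [Finset.sum_eq_zero_iff_of_nonneg fun i _ => mul_self_nonneg _]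
  constructor
  · intro h
    funext i
    exact mul_self_eq_zero.1 (h i (Finset.mem_univ i))
  · intro h i _
    rw [h]; simp

lemma sq_smul (c : ℝ) (u : Fin r → ℝ) : sq (c • u) = c ^ 2 * sq u := by
  unfold sq
  rw [smul_ip, ip_smul]; ring

lemma continuous_sq : Continuous (sq : (Fin r → ℝ) → ℝ) := by
  unfold sq ip
  fun_prop

/-- the functions `sq (· - β)` define the topology -/
lemma exists_sq_lt {β : Fin r → ℝ} {P : (Fin r → ℝ) → Prop} (h : ∀ᶠ u in 𝓝 β, P u) :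
    ∃ δ > 0, ∀ u, sq (u - β) < δ → P u := by
  obtain ⟨ε, hε, hb⟩ := Metric.eventually_nhds_iff.1 h
  refine ⟨ε ^ 2, by positivity, fun u hu => hb ?_⟩
  rw [dist_eq_norm, pi_norm_lt_iff hε]
  intro i
  have h1 : (u - β) i * (u - β) i ≤ sq (u - β) := by
    unfold sq ip
    exact Finset.single_le_sum (f := fun i => (u - β) i * (u - β) i)
      (fun i _ => mul_self_nonneg _) (Finset.mem_univ i)
  rw [Real.norm_eq_abs]
  refine abs_lt_of_sq_lt_sq ?_ hε.le
  nlinarith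

lemma exists_eps {Z : Type*} [TopologicalSpace Z] [CompactSpace Z] {g : Z → ℝ} (hg : Continuous g)
    (hg0 : ∀ x, 0 ≤ g x) {P : Z → Prop} (h : ∀ x, g x = 0 → ∀ᶠ y in 𝓝 x, P y) :
    ∃ ε > 0, ∀ x, g x < ε → P x := by
  have hK : IsCompact (interior {x | P x})ᶜ := isOpen_interior.isClosed_compl.isCompact
  have hpos : ∀ x ∈ (interior {x | P x})ᶜ, 0 < g x := by
    intro x hx
    refine lt_of_le_of_ne (hg0 x) fun h' => hx ?_
    rw [mem_interior_iff_mem_nhds]
    exact h x h'.symm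
  obtain ⟨ε, hε, hεK⟩ := hK.exists_forall_le' hg.continuousOn hpos
  refine ⟨ε, hε, fun x hx => ?_⟩
  by_contra hn
  have : x ∈ (interior {x | P x})ᶜ := fun h => hn (interior_subset h)
  exact absurd (hεK x this) (not_le.2 hx)

section field

variable {Z : Type*} (t : Z → Submodule ℝ (Fin r → ℝ)) (μ : Z → Fin r → ℝ)
  (q : (Fin r → ℝ) → Z → ℝ)

/-- the function cutting out the critical set of value `β` -/
def gfun (β : Fin r → ℝ) (x : Z) : ℝ := sq (μ x - β) + q β x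

/-- the cut off functions -/
def chi (ε : (Fin r → ℝ) → ℝ) (β : Fin r → ℝ) (x : Z) : ℝ :=
  Real.smoothTransition (1 - gfun μ q β x / ε β)

/-- the field -/
def ffun (B : Finset (Fin r → ℝ)) (ε : (Fin r → ℝ) → ℝ) (x : Z) : Fin r → ℝ :=
  μ x + ∑ β ∈ B, chi μ q ε β x • (β - μ x)

variable {t μ q}

lemma chi_nonneg (ε : (Fin r → ℝ) → ℝ) (β : Fin r → ℝ) (x : Z) : 0 ≤ chi μ q ε β x :=
  Real.smoothTransition.nonneg _

lemma chi_le_one (ε : (Fin r → ℝ) → ℝ) (β : Fin r → ℝ) (x : Z) : chi μ q ε β x ≤ 1 :=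
  Real.smoothTransition.le_one _

lemma chi_eq_one {ε : (Fin r → ℝ) → ℝ} {β : Fin r → ℝ} {x : Z} (h : gfun μ q β x = 0) :
    chi μ q ε β x = 1 := by
  unfold chi
  rw [h, zero_div, sub_zero]
  exact Real.smoothTransition.one_of_one_le le_rfl

lemma lt_of_chi_ne {ε : (Fin r → ℝ) → ℝ} {β : Fin r → ℝ} {x : Z} (hε : 0 < ε β)
    (h : chi μ q ε β x ≠ 0) : gfun μ q β x < ε β := by
  by_contra hlt
  push Not at hlt
  refine h (Real.smoothTransition.zero_of_nonpos ?_)
  have : 1 ≤ gfun μ q β x / ε β := (one_le_div hε).2 hlt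
  linarith

/-- two elements of a subspace with the same scalar products with the subspace are equal -/
lemma eq_of_ip {S : Submodule ℝ (Fin r → ℝ)} {u v : Fin r → ℝ} (hu : u ∈ S) (hv : v ∈ S)
    (h : ∀ ξ ∈ S, ip u ξ = ip v ξ) : u = v := by
  have h1 := h (u - v) (S.sub_mem hu hv)
  have h2 : sq (u - v) = 0 := by
    unfold sq
    rw [sub_ip, h1, sub_self]
  exact sub_eq_zero.1 (sq_eq_zero'.1 h2)

variable [TopologicalSpace Z]

/-- near a critical point of value `β` -/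
lemma field_nhds (hfin : (range t).Finite) (hμ : Continuous μ)
    (hloc : ∀ x, ∀ᶠ y in 𝓝 x, ∀ ξ ∈ t y, ip (μ y) ξ = ip (μ x) ξ) (B : Finset (Fin r → ℝ))
    {β : Fin r → ℝ} {x : Z} (hx : μ x = β) : ∀ᶠ y in 𝓝 x,
      (∀ ξ ∈ t y, ip (μ y - β) ξ = 0) ∧
      (∀ u, sq (u - β) ≤ sq (μ y - β) → u ∈ t y → β ∈ t y) ∧
      ∀ β' ∈ B, β' ≠ β → sq (μ y - β) < sq (μ y - β') := by
  have h1 : ∀ᶠ y in 𝓝 x, ∀ ξ ∈ t y, ip (μ y - β) ξ = 0 := by
    filter_upwards [hloc x] with y hy ξ hξ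
    rw [sub_ip, hy ξ hξ, hx, sub_self]
  have hc : ∀ β' : Fin r → ℝ, ContinuousAt (fun y => sq (μ y - β')) x := fun β' =>
    (continuous_sq.comp (hμ.sub continuous_const)).continuousAt
  have h2 : ∀ᶠ u in 𝓝 β, ∀ S ∈ range t, u ∈ S → β ∈ S := by
    rw [hfin.eventually_all]
    intro S _
    by_cases hβ : β ∈ S
    · exact Eventually.of_forall fun _ _ => hβ
    · have h3 : IsOpen (S : Set (Fin r → ℝ))ᶜ := (Submodule.closed_of_finiteDimensional S).isOpen_compl
      filter_upwards [h3.mem_nhds hβ] with u hu hu'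
      exact absurd hu' hu
  obtain ⟨δ, hδ, hδ2⟩ := exists_sq_lt h2
  have h0 : sq (μ x - β) = 0 := by rw [hx, sub_self]; exact sq_eq_zero'.2 rfl
  have h4 : ∀ᶠ y in 𝓝 x, sq (μ y - β) < δ := by
    refine (hc β).eventually (gt_mem_nhds ?_)
    show sq (μ x - β) < δ
    rw [h0]; exact hδ
  have h5 : ∀ᶠ y in 𝓝 x, ∀ β' ∈ B, β' ≠ β → sq (μ y - β) < sq (μ y - β') := by
    have : ∀ β' ∈ B, ∀ᶠ y in 𝓝 x, β' ≠ β → sq (μ y - β) < sq (μ y - β') := by
      intro β' _
      by_cases hne : β' = β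
      · exact Eventually.of_forall fun _ h => absurd hne h
      · have h6 : sq (μ x - β) < sq (μ x - β') := by
          rw [h0, hx]
          refine lt_of_le_of_ne (sq_nonneg' _) fun h => hne ?_
          exact (sub_eq_zero.1 (sq_eq_zero'.1 h.symm)).symm
        filter_upwards [(hc β).eventually_lt (hc β') h6] with y hy _ using hy
    exact (Finset.eventually_all B).2 this
  filter_upwards [h1, h4, h5] with y hy1 hy4 hy5
  exact ⟨hy1, fun u hu hut => hδ2 u (lt_of_le_of_lt hu hy4) (t y) ⟨y, rfl⟩ hut, hy5⟩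

theorem exists_field [CompactSpace Z] (hfin : (range t).Finite) (hμ : Continuous μ)
    (hq : ∀ β, Continuous (q β)) (hq0 : ∀ β x, 0 ≤ q β x) (hq1 : ∀ β x, q β x = 0 ↔ β ∈ t x)
    (hloc : ∀ x, ∀ᶠ y in 𝓝 x, ∀ ξ ∈ t y, ip (μ y) ξ = ip (μ x) ξ)
    (B : Finset (Fin r → ℝ)) (hB : ∀ x, μ x ∈ t x → μ x ∈ B) :
    ∃ ε : (Fin r → ℝ) → ℝ, (∀ β, 0 < ε β) ∧ ∀ x, ffun μ q B ε x ∈ t x →
      ffun μ q B ε x ∈ B ∧ chi μ q ε (ffun μ q B ε x) x = 1 ∧
      (∀ β ∈ B, β ≠ ffun μ q B ε x → chi μ q ε β x = 0) ∧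
      ∀ ξ ∈ t x, ip (μ x) ξ = ip (ffun μ q B ε x) ξ := by
  have hg : ∀ β x, gfun μ q β x = 0 → μ x = β ∧ β ∈ t x := by
    intro β x h
    unfold gfun at h
    have h1 := sq_nonneg' (μ x - β)
    have h2 := hq0 β x
    have h3 : sq (μ x - β) = 0 := by linarith
    have h4 : q β x = 0 := by linarith
    exact ⟨sub_eq_zero.1 (sq_eq_zero'.1 h3), (hq1 β x).1 h4⟩
  have hgc : ∀ β, Continuous (gfun μ q β) := fun β =>
    (continuous_sq.comp (hμ.sub continuous_const)).add (hq β)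
  have hg0 : ∀ β x, 0 ≤ gfun μ q β x := fun β x => add_nonneg (sq_nonneg' _) (hq0 β x)
  have key : ∀ β, ∃ ε > 0, ∀ x, gfun μ q β x < ε →
      (∀ ξ ∈ t x, ip (μ x - β) ξ = 0) ∧
      (∀ u, sq (u - β) ≤ sq (μ x - β) → u ∈ t x → β ∈ t x) ∧
      ∀ β' ∈ B, β' ≠ β → sq (μ x - β) < sq (μ x - β') := by
    intro β
    refine exists_eps (hgc β) (hg0 β) fun x hx => ?_
    exact field_nhds hfin hμ hloc B (hg β x hx).1
  choose ε hε hεG using key
  refine ⟨ε, hε, fun x hx => ?_⟩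
  by_cases hall : ∀ β ∈ B, chi μ q ε β x = 0
  · have hf : ffun μ q B ε x = μ x := by
      unfold ffun
      rw [Finset.sum_eq_zero fun β hβ => by rw [hall β hβ, zero_smul], add_zero]
    rw [hf] at hx
    have h1 := hall _ (hB x hx)
    rw [chi_eq_one] at h1
    · exact absurd h1 one_ne_zero
    · unfold gfun
      rw [sub_self, sq_eq_zero'.2 rfl, (hq1 _ _).2 hx, add_zero]
  · push Not at hall
    obtain ⟨β, hβ, hχ⟩ := hall
    obtain ⟨g1, g2, g3⟩ := hεG β x (lt_of_chi_ne (hε β) hχ)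
    have hother : ∀ β' ∈ B, β' ≠ β → chi μ q ε β' x = 0 := by
      intro β' hβ' hne
      by_contra h
      obtain ⟨-, -, g3'⟩ := hεG β' x (lt_of_chi_ne (hε β') h)
      exact absurd (g3 β' hβ' hne) (not_lt.2 (g3' β hβ hne.symm).le)
    have hf : ffun μ q B ε x = μ x + chi μ q ε β x • (β - μ x) := by
      unfold ffun
      rw [Finset.sum_eq_single β (fun β' h h' => by rw [hother β' h h', zero_smul])
        (fun h => absurd hβ h)]
    set c := chi μ q ε β x with hc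
    have hc0 : 0 ≤ c := chi_nonneg ε β x
    have hc1 : c ≤ 1 := chi_le_one ε β x
    have hsub : ffun μ q B ε x - β = (1 - c) • (μ x - β) := by
      rw [hf]
      ext i
      simp only [Pi.sub_apply, Pi.add_apply, Pi.smul_apply, smul_eq_mul]
      ring
    have hle : sq (ffun μ q B ε x - β) ≤ sq (μ x - β) := by
      rw [hsub, sq_smul]
      have h1 : (1 - c) ^ 2 ≤ 1 := by nlinarith
      have h2 := sq_nonneg' (μ x - β)
      nlinarith
    have hβt : β ∈ t x := g2 _ hle hx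
    have h1 : ip (μ x - β) (ffun μ q B ε x - β) = 0 := g1 _ ((t x).sub_mem hx hβt)
    rw [hsub, ip_smul] at h1
    have hc' : c = 1 := by
      rcases mul_eq_zero.1 h1 with h2 | h2
      · linarith
      · have h3 : μ x = β := sub_eq_zero.1 (sq_eq_zero'.1 h2)
        rw [hc]
        refine chi_eq_one ?_
        unfold gfun
        rw [h3, sub_self, sq_eq_zero'.2 rfl, (hq1 _ _).2 hβt, add_zero]
    have hfβ : ffun μ q B ε x = β := by
      have h4 := hsub
      rw [hc', sub_self, zero_smul] at h4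
      exact sub_eq_zero.1 h4
    rw [hfβ]
    refine ⟨hβ, hc', hother, fun ξ hξ => ?_⟩
    have h5 := g1 ξ hξ
    rw [sub_ip] at h5
    linarith

end field

end Vale.Agent.P299.H582
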