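import Mathlib.Analysis.Fourier.AddCircleMulti
import Mathlib.Analysis.Calculus.ContDiff.Basic
import Mathlib.Analysis.Calculus.ParametricIntegral

/-!
# P299, INDEX-KIRWAN: averages of periodic functions on `ℝ^r`, Fourier uniqueness
-/

open Set MeasureTheory
open scoped Topology ComplexConjugate

noncomputable section

namespace Vale.Agent.P299.H582

variable {r : ℕ}

/-- the half open unit cube with corner `a` -/
def cube (a : Fin r → ℝ) : Set (Fin r → ℝ) := {x | ∀ i, x i ∈ Ioc (a i) (a i + 1)}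

lemma measurableSet_cube (a : Fin r → ℝ) : MeasurableSet (cube a) := by
  have : cube a = Set.pi Set.univ fun i => Ioc (a i) (a i + 1) := by
    ext x; simp [cube]
  rw [this]
  exact MeasurableSet.univ_pi fun i => measurableSet_Ioc

lemma cube_subset_Icc (a : Fin r → ℝ) : cube a ⊆ Icc a (a + 1) := by
  intro x hx
  exact ⟨fun i => (hx i).1.le, fun i => (hx i).2⟩

lemma volume_cube_lt_top (a : Fin r → ℝ) : volume (cube a) < ⊤ :=
  (measure_mono (cube_subset_Icc a)).trans_lt isCompact_Icc.measure_lt_top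

/-- the character `t ↦ e^{2πi⟨l,t⟩}` -/
def ch (l : Fin r → ℤ) (t : Fin r → ℝ) : ℂ :=
  Complex.exp (2 * Real.pi * Complex.I * (∑ i, (l i : ℂ) * (t i : ℂ)))

lemma ch_add (l : Fin r → ℤ) (s t : Fin r → ℝ) : ch l (s + t) = ch l s * ch l t := by
  unfold ch
  rw [← Complex.exp_add]
  congr 1
  simp only [Pi.add_apply, Complex.ofReal_add, mul_add, Finset.sum_add_distrib]

lemma ch_zero (l : Fin r → ℤ) : ch l 0 = 1 := by simp [ch]

lemma ch_zero_left (t : Fin r → ℝ) : ch 0 t = 1 := by simp [ch]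

lemma ch_add_left (l m : Fin r → ℤ) (t : Fin r → ℝ) : ch (l + m) t = ch l t * ch m t := by
  unfold ch
  rw [← Complex.exp_add]
  congr 1
  simp only [Pi.add_apply, Int.cast_add, add_mul, Finset.sum_add_distrib, mul_add]

lemma ch_neg_left (l : Fin r → ℤ) (t : Fin r → ℝ) : ch (-l) t * ch l t = 1 := by
  rw [← ch_add_left, neg_add_cancel, ch_zero_left]

lemma ch_ne_zero (l : Fin r → ℤ) (t : Fin r → ℝ) : ch l t ≠ 0 := Complex.exp_ne_zero _

lemma ch_conj (l : Fin r → ℤ) (t : Fin r → ℝ) : conj (ch l t) = ch (-l) t := by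
  unfold ch
  rw [← Complex.exp_conj]
  congr 1
  simp only [map_mul, Complex.conj_I, Complex.conj_ofReal, map_ofNat, map_sum, map_intCast,
    Pi.neg_apply, Int.cast_neg, neg_mul, Finset.sum_neg_distrib]
  ring

lemma ch_norm (l : Fin r → ℤ) (t : Fin r → ℝ) : ‖ch l t‖ = 1 := by
  have h : (2 * Real.pi * Complex.I * (∑ i, (l i : ℂ) * (t i : ℂ))) =
      ((2 * Real.pi * ∑ i, (l i : ℝ) * t i : ℝ) : ℂ) * Complex.I := by
    push_cast; ring
  unfold ch
  rw [h, Complex.norm_exp_ofReal_mul_I]

lemma ch_int (l : Fin r → ℤ) (k : Fin r → ℤ) : ch l (fun i => (k i : ℝ)) = 1 := by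
  unfold ch
  rw [Complex.exp_eq_one_iff]
  refine ⟨∑ i, l i * k i, ?_⟩
  push_cast
  ring

lemma ch_contDiff (l : Fin r → ℤ) : ContDiff ℝ ⊤ (ch l) := by
  unfold ch
  refine Complex.contDiff_exp.comp (contDiff_const.mul ?_)
  refine ContDiff.sum fun i _ => contDiff_const.mul ?_
  exact Complex.ofRealCLM.contDiff.comp (contDiff_apply ℝ ℝ i)

lemma ch_continuous (l : Fin r → ℤ) : Continuous (ch l) := (ch_contDiff l).continuous

lemma hasFDerivAt_ch_zero (l : Fin r → ℤ) :
    HasFDerivAt (ch l) (∑ i, (2 * Real.pi * Complex.I * (l i : ℂ)) •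
      (Complex.ofRealCLM.comp (ContinuousLinearMap.proj i : (Fin r → ℝ) →L[ℝ] ℝ))) 0 := by
  have h1 : HasFDerivAt (fun t : Fin r → ℝ => 2 * Real.pi * Complex.I *
      (∑ i, (l i : ℂ) * (t i : ℂ))) (∑ i, (2 * Real.pi * Complex.I * (l i : ℂ)) •
      (Complex.ofRealCLM.comp (ContinuousLinearMap.proj i : (Fin r → ℝ) →L[ℝ] ℝ))) 0 := by
    have h2 : (fun t : Fin r → ℝ => 2 * Real.pi * Complex.I * (∑ i, (l i : ℂ) * (t i : ℂ))) =
        fun t => ∑ i, (2 * Real.pi * Complex.I * (l i : ℂ)) * ((t i : ℝ) : ℂ) := by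
      funext t; rw [Finset.mul_sum]; exact Finset.sum_congr rfl fun i _ => by ring
    rw [h2]
    refine HasFDerivAt.fun_sum fun i _ => ?_
    have h3 : HasFDerivAt (fun t : Fin r → ℝ => ((t i : ℝ) : ℂ))
        (Complex.ofRealCLM.comp (ContinuousLinearMap.proj i : (Fin r → ℝ) →L[ℝ] ℝ)) 0 :=
      (Complex.ofRealCLM.comp (ContinuousLinearMap.proj i : (Fin r → ℝ) →L[ℝ] ℝ)).hasFDerivAt
    exact h3.const_mul _
  have h4 := h1.cexp
  unfold ch
  refine h4.congr_fderiv ?_
  simp

/-- `g` is invariant under `ℤ^r` -/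
def IsPer {E : Type*} (g : (Fin r → ℝ) → E) : Prop := ∀ (k : Fin r → ℤ) t, g (t + fun i => (k i : ℝ)) = g t

lemma IsPer.mul_ch {g : (Fin r → ℝ) → ℂ} (hg : IsPer g) (l : Fin r → ℤ) :
    IsPer fun t => ch l t * g t := by
  intro k t
  simp only
  rw [hg k t, ch_add, ch_int, mul_one]

/-- the projection to the torus -/
def toT (t : Fin r → ℝ) : UnitAddTorus (Fin r) := fun i => (t i : UnitAddCircle)

lemma isOpenQuotientMap_toT : IsOpenQuotientMap (toT (r := r)) := by
  have : (toT (r := r)) = Pi.map fun _ : Fin r => ((↑) : ℝ → UnitAddCircle) := rfl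
  rw [this]
  exact IsOpenQuotientMap.piMap fun _ => QuotientAddGroup.isOpenQuotientMap_mk

lemma toT_eq_iff {s t : Fin r → ℝ} : toT s = toT t ↔ ∃ k : Fin r → ℤ, s = t + fun i => (k i : ℝ) := by
  constructor
  · intro h
    have h1 : ∀ i, ∃ k : ℤ, s i = t i + k := by
      intro i
      have h2 : ((s i : ℝ) : UnitAddCircle) = (t i : ℝ) := congrFun h i
      rw [← sub_eq_zero, ← AddCircle.coe_sub, AddCircle.coe_eq_zero_iff] at h2
      obtain ⟨k, hk⟩ := h2
      refine ⟨k, ?_⟩
      simp only [zsmul_eq_mul, mul_one] at hk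
      linarith
    choose k hk using h1
    exact ⟨k, funext hk⟩
  · rintro ⟨k, rfl⟩
    funext i
    show ((t i + k i : ℝ) : UnitAddCircle) = (t i : ℝ)
    rw [← sub_eq_zero, ← AddCircle.coe_sub, AddCircle.coe_eq_zero_iff]
    exact ⟨k i, by simp⟩

/-- descent of a periodic function -/
lemma IsPer.exists_desc {E : Type*} {g : (Fin r → ℝ) → E} (hg : IsPer g) :
    ∃ G : UnitAddTorus (Fin r) → E, ∀ t, G (toT t) = g t := by
  have hs : Function.Surjective (toT (r := r)) := isOpenQuotientMap_toT.surjective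
  refine ⟨fun q => g (Function.surjInv hs q), fun t => ?_⟩
  obtain ⟨k, hk⟩ := toT_eq_iff.1 (Function.surjInv_eq hs (toT t))
  simp only
  rw [hk, hg k t]

section
variable {E : Type*} [NormedAddCommGroup E] [NormedSpace ℂ E]

/-- the average does not depend on the cube -/
lemma IsPer.integral_cube {g : (Fin r → ℝ) → E} (hg : IsPer g) (a b : Fin r → ℝ) :
    ∫ t in cube a, g t = ∫ t in cube b, g t := by
  obtain ⟨G, hG⟩ := hg.exists_desc
  have h1 := UnitAddTorus.mFourierCoeff_eq_integral G 0 a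
  have h2 := UnitAddTorus.mFourierCoeff_eq_integral G 0 b
  simp only [neg_zero, UnitAddTorus.mFourier_zero, ContinuousMap.one_apply, one_smul] at h1 h2
  have e1 : ∀ t : Fin r → ℝ, G (fun i => (t i : UnitAddCircle)) = g t := hG
  simp only [e1] at h1 h2
  exact h1.symm.trans h2

/-- translation invariance of the average -/
theorem IsPer.integral_add {g : (Fin r → ℝ) → E} (hg : IsPer g) (s : Fin r → ℝ) :
    ∫ t in cube (0 : Fin r → ℝ), g (s + t) = ∫ t in cube (0 : Fin r → ℝ), g t := by
  rw [hg.integral_cube 0 s]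
  have h1 : (fun t => (cube s).indicator g t) = fun t => (cube (0 : Fin r → ℝ)).indicator
      (fun t => g (s + t)) (t - s) := by
    funext t
    by_cases ht : t ∈ cube s
    · have ht' : t - s ∈ cube (0 : Fin r → ℝ) := fun i => by
        have := ht i
        simp only [Pi.zero_apply, Pi.sub_apply, zero_add, mem_Ioc] at this ⊢
        constructor <;> linarith [this.1, this.2]
      rw [indicator_of_mem ht, indicator_of_mem ht']
      simp
    · have ht' : t - s ∉ cube (0 : Fin r → ℝ) := fun h => ht fun i => by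
        have := h i
        simp only [Pi.zero_apply, Pi.sub_apply, zero_add, mem_Ioc] at this ⊢
        constructor <;> linarith [this.1, this.2]
      rw [indicator_of_notMem ht, indicator_of_notMem ht']
  rw [← integral_indicator (measurableSet_cube _), ← integral_indicator (measurableSet_cube _)]
  have h2 : ∫ t, (cube s).indicator g t = ∫ t, (cube (0 : Fin r → ℝ)).indicator
      (fun t => g (s + t)) (t - s) := by
    congr 1
  rw [h2, integral_sub_right_eq_self (fun t => (cube (0 : Fin r → ℝ)).indicator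
      (fun t => g (s + t)) t) s]

end

lemma ch_eq_mFourier (l : Fin r → ℤ) (t : Fin r → ℝ) :
    UnitAddTorus.mFourier l (toT t) = ch l t := by
  simp only [UnitAddTorus.mFourier, ContinuousMap.coe_mk, toT, ch]
  rw [Finset.mul_sum, Complex.exp_sum]
  refine Finset.prod_congr rfl fun i _ => ?_
  rw [fourier_coe_apply]
  congr 1
  push_cast
  ring

/-- **Fourier uniqueness** for continuous periodic functions on `ℝ^r`. -/
theorem IsPer.eq_zero {g : (Fin r → ℝ) → ℂ} (hg : IsPer g) (hc : Continuous g)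
    (h : ∀ l : Fin r → ℤ, ∫ t in cube (0 : Fin r → ℝ), ch l t * g t = 0) : ∀ t, g t = 0 := by
  obtain ⟨G, hG⟩ := hg.exists_desc
  have hGc : Continuous G := by
    rw [isOpenQuotientMap_toT.isQuotientMap.continuous_iff]
    have : G ∘ toT = g := funext hG
    rw [this]; exact hc
  set F : C(UnitAddTorus (Fin r), ℂ) := ⟨G, hGc⟩ with hF
  have hco : UnitAddTorus.mFourierCoeff F = 0 := by
    funext l
    rw [UnitAddTorus.mFourierCoeff_eq_integral (F : UnitAddTorus (Fin r) → ℂ) l 0]
    rw [Pi.zero_apply, ← h (-l)]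
    refine setIntegral_congr_fun (measurableSet_cube 0) fun t _ => ?_
    have e1 : F (fun i => (t i : UnitAddCircle)) = g t := hG t
    have e2 : UnitAddTorus.mFourier (-l) (fun i => (t i : UnitAddCircle)) = ch (-l) t :=
      ch_eq_mFourier (-l) t
    simp only [e1, e2, smul_eq_mul]
  have hsum : Summable (UnitAddTorus.mFourierCoeff F) := by
    rw [hco]; exact summable_zero
  have h3 := UnitAddTorus.hasSum_mFourier_series_of_summable hsum
  rw [hco] at h3
  have h4 : F = 0 := by
    refine h3.unique ?_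
    have h5 : (fun i => (0 : (Fin r → ℤ) → ℂ) i • UnitAddTorus.mFourier (d := Fin r) i) =
        fun _ => 0 := by
      funext i
      exact zero_smul ℂ (UnitAddTorus.mFourier (d := Fin r) i)
    rw [h5]
    exact hasSum_zero
  intro t
  rw [← hG t]
  exact DFunLike.congr_fun h4 (toT t)

end Vale.Agent.P299.H582
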