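import Vale.Agent.P299.H582.Kir.Fourier
import Mathlib.Analysis.Calculus.ContDiff.FiniteDimension
import Mathlib.Analysis.Calculus.ContDiff.Operations

/-!
# P299, INDEX-KIRWAN: integrals over the unit cube depending on parameters
-/

open Set MeasureTheory Filter Metric
open scoped Topology ContDiff

noncomputable section

namespace Vale.Agent.P299.H582

variable {r : ℕ} {F : Type} [NormedAddCommGroup F] [NormedSpace ℝ F] [ProperSpace F]

/-- the average over the cube -/
def avg {E : Type*} [NormedAddCommGroup E] [NormedSpace ℝ E] (g : (Fin r → ℝ) → E) : E :=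
  ∫ t in cube (0 : Fin r → ℝ), g t

section
variable {E : Type*} [NormedAddCommGroup E] [NormedSpace ℝ E]

lemma ae_mem_Icc : ∀ᵐ t ∂(volume.restrict (cube (0 : Fin r → ℝ))), t ∈ Icc (0 : Fin r → ℝ) (0 + 1) := by
  filter_upwards [self_mem_ae_restrict (measurableSet_cube (0 : Fin r → ℝ))] with t ht
  exact cube_subset_Icc 0 ht

instance : IsFiniteMeasure (volume.restrict (cube (0 : Fin r → ℝ))) :=
  ⟨by rw [Measure.restrict_apply_univ]; exact volume_cube_lt_top 0⟩

lemma integrable_cube {g : (Fin r → ℝ) → E} (hg : Continuous g) :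
    Integrable g (volume.restrict (cube (0 : Fin r → ℝ))) := by
  obtain ⟨C, hC⟩ := (isCompact_Icc (a := (0 : Fin r → ℝ)) (b := 0 + 1)).exists_bound_of_continuousOn
    hg.continuousOn
  refine Integrable.of_bound hg.aestronglyMeasurable C ?_
  filter_upwards [ae_mem_Icc] with t ht using hC t ht

/-- partial derivative -/
def pd (Φ : (Fin r → ℝ) × F → E) : (Fin r → ℝ) × F → (F →L[ℝ] E) := fun p =>
  (fderiv ℝ Φ p).comp (ContinuousLinearMap.inr ℝ (Fin r → ℝ) F)

omit [ProperSpace F] in
lemma hasFDerivAt_pd {Φ : (Fin r → ℝ) × F → E} {p : (Fin r → ℝ) × F}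
    (h : DifferentiableAt ℝ Φ p) : HasFDerivAt (fun y => Φ (p.1, y)) (pd Φ p) p.2 :=
  h.hasFDerivAt.comp p.2 (hasFDerivAt_prodMk_right p.1 p.2)

variable {U : Set F}

/-- smoothness over an open set of parameters -/
def SmOn (U : Set F) (Φ : (Fin r → ℝ) × F → E) : Prop :=
  ∀ p : (Fin r → ℝ) × F, p.2 ∈ U → ContDiffAt ℝ ∞ Φ p

omit [ProperSpace F] in
lemma SmOn.pd {Φ : (Fin r → ℝ) × F → E} (h : SmOn U Φ) : SmOn U (pd Φ) := fun p hp => by
  have h1 : ContDiffAt ℝ ∞ (fderiv ℝ Φ) p := (h p hp).fderiv_right (m := ∞) (by simp)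
  exact h1.clm_comp contDiffAt_const

omit [ProperSpace F] in
lemma SmOn.continuous {Φ : (Fin r → ℝ) × F → E} (h : SmOn U Φ) {y : F} (hy : y ∈ U) :
    Continuous fun t => Φ (t, y) := by
  rw [continuous_iff_continuousAt]
  intro t
  exact (h (t, y) hy).continuousAt.comp (f := fun t => (t, y))
    (continuous_id.prodMk continuous_const).continuousAt

theorem hasFDerivAt_avg {Φ : (Fin r → ℝ) × F → E} (hU : IsOpen U) (h : SmOn U Φ) {y₀ : F}
    (hy : y₀ ∈ U) :
    HasFDerivAt (fun y => avg fun t => Φ (t, y)) (avg fun t => pd Φ (t, y₀)) y₀ := by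
  obtain ⟨δ, hδ, hδU⟩ := Metric.nhds_basis_closedBall.mem_iff.1 (hU.mem_nhds hy)
  obtain ⟨C, hC⟩ := ((isCompact_Icc (a := (0 : Fin r → ℝ)) (b := 0 + 1)).prod
    (isCompact_closedBall y₀ δ)).exists_bound_of_continuousOn (f := pd Φ)
    (fun p hp => (h.pd p (hδU hp.2)).continuousAt.continuousWithinAt)
  unfold avg
  refine hasFDerivAt_integral_of_dominated_of_fderiv_le (F := fun y t => Φ (t, y))
    (F' := fun y t => pd Φ (t, y)) (bound := fun _ => C) (s := ball y₀ δ)
    (ball_mem_nhds y₀ hδ) ?_ (integrable_cube (h.continuous hy))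
    (h.pd.continuous hy).aestronglyMeasurable ?_ (integrable_const C) ?_
  · filter_upwards [ball_mem_nhds y₀ hδ] with y hy'
    exact (h.continuous (hδU (ball_subset_closedBall hy'))).aestronglyMeasurable
  · filter_upwards [ae_mem_Icc] with t ht y hy'
    exact hC (t, y) ⟨ht, ball_subset_closedBall hy'⟩
  · refine Eventually.of_forall fun t y hy' => ?_
    exact hasFDerivAt_pd (p := (t, y))
      ((h (t, y) (hδU (ball_subset_closedBall hy'))).differentiableAt (by simp))

end

theorem contDiffAt_avg_nat (k : ℕ) : ∀ (E : Type) [NormedAddCommGroup E] [NormedSpace ℝ E]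
    {U : Set F} (_ : IsOpen U) (Φ : (Fin r → ℝ) × F → E) (_ : SmOn U Φ),
    ContDiffOn ℝ k (fun y => avg fun t => Φ (t, y)) U := by
  induction k with
  | zero =>
    intro E _ _ U hU Φ h
    rw [Nat.cast_zero, contDiffOn_zero]
    exact fun y hy => (hasFDerivAt_avg hU h hy).continuousAt.continuousWithinAt
  | succ k ih =>
    intro E _ _ U hU Φ h
    rw [show ((k + 1 : ℕ) : WithTop ℕ∞) = (k : WithTop ℕ∞) + 1 by push_cast; rfl,
      contDiffOn_succ_iff_fderiv_of_isOpen hU]
    refine ⟨fun y hy => (hasFDerivAt_avg hU h hy).differentiableAt.differentiableWithinAt,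
      by simp, ?_⟩
    refine (ih (F →L[ℝ] E) hU (pd Φ) h.pd).congr fun y hy => ?_
    exact (hasFDerivAt_avg hU h hy).fderiv

/-- **smooth dependence of the average on parameters** -/
theorem contDiffAt_avg {E : Type} [NormedAddCommGroup E] [NormedSpace ℝ E]
    {U : Set F} (hU : IsOpen U) {Φ : (Fin r → ℝ) × F → E} (h : SmOn U Φ) {y : F} (hy : y ∈ U) :
    ContDiffAt ℝ ∞ (fun y => avg fun t => Φ (t, y)) y := by
  have h1 : ContDiffOn ℝ ∞ (fun y => avg fun t => Φ (t, y)) U := by
    rw [contDiffOn_infty]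
    exact fun k => contDiffAt_avg_nat k E hU Φ h
  exact h1.contDiffAt (hU.mem_nhds hy)

end Vale.Agent.P299.H582
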